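import Vale.Agent.Lib.P045R.Main
import Vale.Agent.Lib.P045c.R61.Root

namespace Vale.Agent.Results.P045.A0_r6_eps

universe u

/-- Intersecting case of Ryser's conjecture for `r = 6`, in the form used by the main theorem. -/
theorem intersecting {V : Type u} [DecidableEq V] (part : V → Fin 6) (P : Finset (Finset V))
    (hP : ∀ e ∈ P, ∀ i : Fin 6, (e.filter fun v => part v = i).card = 1)
    (hint : ∀ e ∈ P, ∀ f ∈ P, (e ∩ f).Nonempty) :
    ∃ T : Finset V, T.card ≤ 5 ∧ ∀ e ∈ P, ∃ v ∈ e, v ∈ T := by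
  refine Vale.Agent.Lib.P045c.bound_of_root_fin (by norm_num) (by norm_num)
    Vale.Agent.Lib.P045c.R61.root part P hP ?_
  intro M hM hd
  by_contra hcard
  obtain ⟨a, ha, b, hb, hab⟩ := Finset.one_lt_card.1 (Nat.lt_of_not_le hcard)
  have hdis : Disjoint a b := hd ha hb hab
  obtain ⟨v, hv⟩ := hint a (hM ha) b (hM hb)
  exact Finset.disjoint_left.1 hdis (Finset.mem_inter.1 hv).1 (Finset.mem_inter.1 hv).2

/-- There is a universal integer `C > 0` such that every `6`-partite `6`-uniform hypergraph `H`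
(finite edge set over an arbitrary vertex type, each edge having exactly one vertex in each of the
six parts) whose matchings have at most `N` edges has a vertex cover `T` with
`C * |T| ≤ (6 * C - 1) * N`, that is `τ(H) ≤ (6 - 1 / C) * ν(H)`. -/
theorem result : ∃ C : ℕ, 0 < C ∧ ∀ {V : Type u} [DecidableEq V] (part : V → Fin 6)
    (H : Finset (Finset V)),
    (∀ e ∈ H, ∀ i : Fin 6, (e.filter fun v => part v = i).card = 1) → ∀ N : ℕ,
    (∀ M ⊆ H, (M : Set (Finset V)).PairwiseDisjoint id → M.card ≤ N) →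
    ∃ T : Finset V, C * T.card ≤ (6 * C - 1) * N ∧ ∀ e ∈ H, ∃ v ∈ e, v ∈ T :=
  Vale.Agent.Lib.P045R.main_any (fun part P hP hint => intersecting part P hP hint)

end Vale.Agent.Results.P045.A0_r6_eps
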