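import Vale.Agent.Lib.P045c.R61.Root

namespace Vale.Agent.Results.P045.C_r6_intersecting

universe u

/-- Intersecting `6`-partite `6`-uniform hypergraphs have vertex covers with at most `5` vertices:
any two edges of `H` share a vertex, each edge has exactly one vertex in each of the six parts. -/
theorem result {V : Type u} [DecidableEq V] (part : V → Fin 6) (H : Finset (Finset V))
    (hH : ∀ e ∈ H, ∀ i : Fin 6, (e.filter fun v => part v = i).card = 1)
    (hint : ∀ e ∈ H, ∀ f ∈ H, (e ∩ f).Nonempty) :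
    ∃ T : Finset V, T.card ≤ 5 ∧ ∀ e ∈ H, ∃ v ∈ e, v ∈ T := by
  refine Vale.Agent.Lib.P045c.bound_of_root_fin (by norm_num) (by norm_num)
    Vale.Agent.Lib.P045c.R61.root part H hH ?_
  intro M hM hd
  by_contra hcard
  obtain ⟨a, ha, b, hb, hab⟩ := Finset.one_lt_card.1 (Nat.lt_of_not_le hcard)
  have hdis : Disjoint a b := hd ha hb hab
  obtain ⟨v, hv⟩ := hint a (hM ha) b (hM hb)
  exact Finset.disjoint_left.1 hdis (Finset.mem_inter.1 hv).1 (Finset.mem_inter.1 hv).2

end Vale.Agent.Results.P045.C_r6_intersecting
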