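import Vale.Agent.Results.P045.A_r4_nu2
import Vale.Agent.Results.P045.C_r6_intersecting
import Vale.Agent.Results.P045.A0_r6_eps

namespace Vale.Agent.Results.P045.A00_master

universe u

/-- (1) There is a universal integer `C > 0` such that every `6`-partite `6`-uniform hypergraph `H`
whose matchings have at most `N` edges has a vertex cover `T` with `C * |T| ≤ (6 * C - 1) * N`, that
is `τ(H) ≤ (6 - 1 / C) * ν(H)`. (2) Intersecting `6`-partite `6`-uniform hypergraphs have vertex
covers with at most `5` vertices: any two edges of `H` share a vertex, each edge has exactly one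
vertex in each of the six parts. (3) Ryser's bound for `4`-partite `4`-uniform hypergraphs of matching
number at most `2`: there is a vertex cover with at most `6` vertices. The vertex set and the
hypergraph are arbitrary. -/
theorem result :
    (∃ C : ℕ, 0 < C ∧ ∀ {V : Type u} [DecidableEq V] (part : V → Fin 6)
      (H : Finset (Finset V)),
      (∀ e ∈ H, ∀ i : Fin 6, (e.filter fun v => part v = i).card = 1) → ∀ N : ℕ,
      (∀ M ⊆ H, (M : Set (Finset V)).PairwiseDisjoint id → M.card ≤ N) →
      ∃ T : Finset V, C * T.card ≤ (6 * C - 1) * N ∧ ∀ e ∈ H, ∃ v ∈ e, v ∈ T) ∧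
    (∀ {V : Type u} [DecidableEq V] (part : V → Fin 6) (H : Finset (Finset V)),
      (∀ e ∈ H, ∀ i : Fin 6, (e.filter fun v => part v = i).card = 1) →
      (∀ e ∈ H, ∀ f ∈ H, (e ∩ f).Nonempty) →
      ∃ T : Finset V, T.card ≤ 5 ∧ ∀ e ∈ H, ∃ v ∈ e, v ∈ T) ∧
    (∀ {V : Type u} [DecidableEq V] (part : V → Fin 4) (H : Finset (Finset V)),
      (∀ e ∈ H, ∀ i : Fin 4, (e.filter fun v => part v = i).card = 1) →
      (∀ M ⊆ H, (M : Set (Finset V)).PairwiseDisjoint id → M.card ≤ 2) →
      ∃ T : Finset V, T.card ≤ 6 ∧ ∀ e ∈ H, ∃ v ∈ e, v ∈ T) :=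
  ⟨Vale.Agent.Results.P045.A0_r6_eps.result,
    fun part H hH hint => Vale.Agent.Results.P045.C_r6_intersecting.result part H hH hint,
    fun part H hH hν => Vale.Agent.Results.P045.A_r4_nu2.result part H hH hν⟩

end Vale.Agent.Results.P045.A00_master
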