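import Vale.Agent.Lib.P045.R42.Root

namespace Vale.Agent.Results.P045.A_r4_nu2

universe u

/-- Ryser's bound for `4`-partite `4`-uniform hypergraphs of matching number at most `2`:
there is a vertex cover with at most `6` vertices. The vertex set and the hypergraph are
arbitrary. -/
theorem result {V : Type u} [DecidableEq V] (part : V → Fin 4) (H : Finset (Finset V))
    (hH : ∀ e ∈ H, ∀ i : Fin 4, (e.filter fun v => part v = i).card = 1)
    (hν : ∀ M ⊆ H, (M : Set (Finset V)).PairwiseDisjoint id → M.card ≤ 2) :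
    ∃ T : Finset V, T.card ≤ 6 ∧ ∀ e ∈ H, ∃ v ∈ e, v ∈ T :=
  Vale.Agent.Lib.P045.bound_of_root_fin (by norm_num) Vale.Agent.Lib.P045.R42.root part H hH hν

end Vale.Agent.Results.P045.A_r4_nu2
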